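import Mathlib

namespace Vale.Agent.Lib.P295

open MvPolynomial

variable {σ τ : Type*}

/-- Chain rule for the derivative of a substitution. -/
theorem pderiv_aeval_sum [Fintype σ] [DecidableEq σ]
    (g : σ → MvPolynomial τ ℂ) (j : τ) (P : MvPolynomial σ ℂ) :
    pderiv j (aeval g P) = ∑ k, aeval g (pderiv k P) * pderiv j (g k) := by
  induction P using MvPolynomial.induction_on with
  | C a =>
    have : ∀ k, aeval g (pderiv k (C a : MvPolynomial σ ℂ)) * pderiv j (g k) = 0 := by
      intro k
      rw [pderiv_C, map_zero, zero_mul]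
    rw [Finset.sum_congr rfl fun k _ => this k, Finset.sum_const_zero, aeval_C]
    exact pderiv_C
  | add p q hp hq =>
    rw [map_add, map_add, hp, hq, ← Finset.sum_add_distrib]
    refine Finset.sum_congr rfl fun k _ => ?_
    rw [map_add, map_add, add_mul]
  | mul_X p i h =>
    rw [map_mul, aeval_X, pderiv_mul, h, Finset.sum_mul]
    have : ∀ k, aeval g (pderiv k (p * X i)) * pderiv j (g k)
        = aeval g (pderiv k p) * pderiv j (g k) * g i
          + (if k = i then aeval g p * pderiv j (g i) else 0) := by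
      intro k
      rw [pderiv_mul, map_add, map_mul, map_mul, aeval_X, pderiv_X]
      by_cases hk : k = i
      · subst hk
        rw [if_pos rfl, Pi.single_eq_same, map_one]
        ring
      · rw [if_neg hk, Pi.single_eq_of_ne (Ne.symm hk), map_zero]
        ring
    rw [Finset.sum_congr rfl fun k _ => this k, Finset.sum_add_distrib, Finset.sum_ite_eq']
    simp

/-- Evaluation after an algebra homomorphism is evaluation at the image point. -/
theorem eval_algHom_apply (φ : MvPolynomial σ ℂ →ₐ[ℂ] MvPolynomial τ ℂ) (a : τ → ℂ)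
    (Q : MvPolynomial σ ℂ) :
    eval a (φ Q) = eval (fun k => eval a (φ (X k))) Q := by
  have h1 : φ = aeval (fun k => φ (X k)) := aeval_unique φ
  have h2 := comp_aeval_apply (f := fun k => φ (X k)) (aeval a : MvPolynomial τ ℂ →ₐ[ℂ] ℂ) Q
  rw [← h1] at h2
  rw [← aeval_eq_eval, ← aeval_eq_eval]
  exact h2

/-- A coordinate has nowhere vanishing gradient. -/
theorem exists_pderiv_eval_ne_zero [Fintype σ] [DecidableEq σ]
    (φ : MvPolynomial σ ℂ ≃ₐ[ℂ] MvPolynomial σ ℂ) (j : σ) (F : MvPolynomial σ ℂ)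
    (hF : φ (X j) = F) (a : σ → ℂ) : ∃ k, eval a (pderiv k F) ≠ 0 := by
  by_contra hcon
  simp only [not_exists, not_not] at hcon
  set g : σ → MvPolynomial σ ℂ := fun k => φ.symm (X k) with hg
  have hsymm : ∀ Q, aeval g Q = φ.symm Q := by
    intro Q
    have : (φ.symm : MvPolynomial σ ℂ →ₐ[ℂ] MvPolynomial σ ℂ) = aeval g := aeval_unique _
    rw [← this]; rfl
  have h1 : aeval g F = X j := by
    rw [hsymm, ← hF, AlgEquiv.symm_apply_apply]
  have h2 := pderiv_aeval_sum g j F
  rw [h1, pderiv_X_self] at h2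
  set b : σ → ℂ := fun k => eval a (φ (X k)) with hb
  have h3 : ∀ Q : MvPolynomial σ ℂ, eval b (aeval g Q) = eval a Q := by
    intro Q
    rw [hsymm]
    have e2 := eval_algHom_apply (φ : MvPolynomial σ ℂ →ₐ[ℂ] MvPolynomial σ ℂ) a (φ.symm Q)
    have e3 : (φ : MvPolynomial σ ℂ →ₐ[ℂ] MvPolynomial σ ℂ) (φ.symm Q) = Q :=
      AlgEquiv.apply_symm_apply φ Q
    rw [e3] at e2
    exact e2.symm
  have h4 := congrArg (eval b) h2
  rw [map_one, map_sum] at h4
  have h5 : ∀ k, eval b (aeval g (pderiv k F) * pderiv j (g k)) = 0 := by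
    intro k
    rw [map_mul, h3, hcon, zero_mul]
  rw [Finset.sum_congr rfl fun k _ => h5 k, Finset.sum_const_zero] at h4
  exact one_ne_zero h4

end Vale.Agent.Lib.P295
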