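import Mathlib
import Vale.Agent.Lib.P295.Chain

namespace Vale.Agent.Lib.P295

open MvPolynomial

variable {σ : Type*}

theorem notMem_vars_of_pderiv_eq_zero (h : MvPolynomial σ ℂ) (i : σ) (hd : pderiv i h = 0) :
    i ∉ h.vars := by
  classical
  intro hi
  rw [mem_vars_iff_mem_support] at hi
  obtain ⟨d, hd1, hd2⟩ := hi
  have hdi : d i ≠ 0 := Finsupp.mem_support_iff.mp hd2
  have h1 := coeff_pderiv (i := i) h (d - Finsupp.single i 1)
  rw [hd, coeff_zero] at h1
  have h2 : d - Finsupp.single i 1 + Finsupp.single i 1 = d := by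
    ext k
    by_cases hk : k = i
    · subst hk
      simp only [Finsupp.coe_add, Finsupp.coe_tsub, Pi.add_apply, Pi.sub_apply,
        Finsupp.single_eq_same]
      omega
    · simp [Finsupp.single_eq_of_ne hk]
  rw [h2] at h1
  have h3 : coeff d h ≠ 0 := mem_support_iff.mp hd1
  rcases mul_eq_zero.mp h1.symm with h4 | h4
  · exact h3 h4
  · have h5 : ((((d - Finsupp.single i 1 : σ →₀ ℕ) i + 1 : ℕ)) : ℂ) = 0 := by
      push_cast
      exact h4
    exact Nat.succ_ne_zero _ (Nat.cast_eq_zero.mp h5)

theorem aeval_update_eq_self [DecidableEq σ] (h : MvPolynomial σ ℂ) (i : σ) (hd : pderiv i h = 0)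
    (q : MvPolynomial σ ℂ) : aeval (Function.update X i q) h = h := by
  have hi := notMem_vars_of_pderiv_eq_zero h i hd
  have h1 : aeval (Function.update X i q) h = aeval X h := by
    refine eval₂Hom_congr' rfl ?_ rfl
    intro k hk _
    have : k ≠ i := fun hki => hi (hki ▸ hk)
    rw [Function.update_of_ne this]
  rw [h1, aeval_X_left_apply]

theorem exists_equiv_of_const_direction [Fintype σ] [DecidableEq σ] (f : MvPolynomial σ ℂ)
    (v : σ → ℂ) (hv : ∑ i, C (v i) * pderiv i f = 1) :
    ∃ ψ : MvPolynomial σ ℂ ≃ₐ[ℂ] MvPolynomial σ ℂ, ∃ i, ψ (X i) = f := by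
  obtain ⟨i0, hi0⟩ : ∃ i0, v i0 ≠ 0 := by
    by_contra hne
    simp only [not_exists, not_not] at hne
    have : ∀ i, C (v i) * pderiv i f = 0 := by
      intro i
      rw [hne i, C_0, zero_mul]
    rw [Finset.sum_congr rfl fun i _ => this i, Finset.sum_const_zero] at hv
    exact zero_ne_one hv
  set ga : σ → MvPolynomial σ ℂ := fun k => (if k = i0 then 0 else X k) + C (v k) * X i0 with hga
  set gb : σ → MvPolynomial σ ℂ := fun k =>
    if k = i0 then C (v i0)⁻¹ * X i0 else X k - C (v k * (v i0)⁻¹) * X i0 with hgb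
  have hC : (C (v i0) : MvPolynomial σ ℂ) * C (v i0)⁻¹ = 1 := by
    rw [← C_mul, mul_inv_cancel₀ hi0, C_1]
  have hαβ : (aeval ga : MvPolynomial σ ℂ →ₐ[ℂ] MvPolynomial σ ℂ).comp (aeval gb)
      = AlgHom.id ℂ _ := by
    apply MvPolynomial.algHom_ext
    intro k
    rw [AlgHom.comp_apply, aeval_X, AlgHom.id_apply]
    by_cases hk : k = i0
    · subst hk
      simp only [hgb, hga, if_true, map_mul, aeval_C, aeval_X, algebraMap_eq, zero_add]
      rw [mul_left_comm, ← mul_assoc, hC, one_mul]
    · simp only [hgb, hga, if_neg hk, if_true, map_sub, map_mul, aeval_C, aeval_X,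
        algebraMap_eq, zero_add]
      linear_combination (-(C (v k) * X i0 : MvPolynomial σ ℂ)) * hC
  have hβα : (aeval gb : MvPolynomial σ ℂ →ₐ[ℂ] MvPolynomial σ ℂ).comp (aeval ga)
      = AlgHom.id ℂ _ := by
    apply MvPolynomial.algHom_ext
    intro k
    rw [AlgHom.comp_apply, aeval_X, AlgHom.id_apply]
    by_cases hk : k = i0
    · subst hk
      simp only [hgb, hga, if_true, map_mul, aeval_C, aeval_X,
        algebraMap_eq, zero_add]
      rw [← mul_assoc, hC, one_mul]
    · simp only [hgb, hga, if_neg hk, if_true, map_add, map_mul, aeval_C, aeval_X,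
        algebraMap_eq]
      ring
  set g : MvPolynomial σ ℂ := aeval ga f with hg
  have hpg : pderiv i0 g = 1 := by
    rw [hg, pderiv_aeval_sum]
    have h1 : ∀ k, aeval ga (pderiv k f) * pderiv i0 (ga k) = aeval ga (C (v k) * pderiv k f) := by
      intro k
      have h2 : pderiv i0 (ga k) = C (v k) := by
        simp only [hga]
        by_cases hk : k = i0
        · subst hk
          rw [if_pos rfl, zero_add, pderiv_C_mul, pderiv_X_self, mul_one]
        · rw [if_neg hk, map_add, pderiv_X_of_ne hk, zero_add, pderiv_C_mul, pderiv_X_self,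
            mul_one]
      rw [h2, map_mul, aeval_C, algebraMap_eq, mul_comm]
    rw [Finset.sum_congr rfl fun k _ => h1 k, ← map_sum, hv, map_one]
  set h : MvPolynomial σ ℂ := g - X i0 with hh
  have hph : pderiv i0 h = 0 := by
    rw [hh, map_sub, hpg, pderiv_X_self, sub_self]
  have hτh : ∀ q, aeval (Function.update X i0 q) h = h := aeval_update_eq_self h i0 hph
  have hττ' : (aeval (Function.update X i0 (X i0 + h)) : MvPolynomial σ ℂ →ₐ[ℂ] _).comp
      (aeval (Function.update X i0 (X i0 - h))) = AlgHom.id ℂ _ := by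
    apply MvPolynomial.algHom_ext
    intro k
    rw [AlgHom.comp_apply, aeval_X, AlgHom.id_apply]
    by_cases hk : k = i0
    · subst hk
      rw [Function.update_self, map_sub, aeval_X, Function.update_self, hτh]
      ring
    · rw [Function.update_of_ne hk, aeval_X, Function.update_of_ne hk]
  have hτ'τ : (aeval (Function.update X i0 (X i0 - h)) : MvPolynomial σ ℂ →ₐ[ℂ] _).comp
      (aeval (Function.update X i0 (X i0 + h))) = AlgHom.id ℂ _ := by
    apply MvPolynomial.algHom_ext
    intro k
    rw [AlgHom.comp_apply, aeval_X, AlgHom.id_apply]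
    by_cases hk : k = i0
    · subst hk
      rw [Function.update_self, map_add, aeval_X, Function.update_self, hτh]
      ring
    · rw [Function.update_of_ne hk, aeval_X, Function.update_of_ne hk]
  refine ⟨(AlgEquiv.ofAlgHom _ _ hττ' hτ'τ).trans (AlgEquiv.ofAlgHom _ _ hβα hαβ), i0, ?_⟩
  rw [AlgEquiv.trans_apply, AlgEquiv.ofAlgHom_apply, AlgEquiv.ofAlgHom_apply, aeval_X,
    Function.update_self]
  have h5 : X i0 + h = g := by rw [hh]; ring
  rw [h5, hg]
  have h6 := AlgHom.congr_fun hβα f
  rw [AlgHom.comp_apply, AlgHom.id_apply] at h6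
  exact h6

end Vale.Agent.Lib.P295
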