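import Mathlib
import Vale.Agent.Lib.P295.Chain

namespace Vale.Agent.Lib.P295

open MvPolynomial

variable {σ : Type*}

theorem totalDegree_pderiv_le_one (f : MvPolynomial σ ℂ)
    (hf : f.totalDegree ≤ 2) (i : σ) : (pderiv i f).totalDegree ≤ 1 := by
  classical
  rw [totalDegree]
  apply Finset.sup_le
  intro m hm
  rw [mem_support_iff, coeff_pderiv] at hm
  have hm' : coeff (m + Finsupp.single i 1) f ≠ 0 := left_ne_zero_of_mul hm
  have h1 := le_totalDegree (mem_support_iff.mpr hm')
  rw [Finsupp.sum_add_index' (by simp) (by simp), Finsupp.sum_single_index rfl] at h1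
  omega

theorem finsupp_eq_zero_or_single (s : σ →₀ ℕ) (hs : (s.sum fun _ e => e) ≤ 1) :
    s = 0 ∨ ∃ j, s = Finsupp.single j 1 := by
  classical
  by_cases h0 : s = 0
  · exact Or.inl h0
  · right
    obtain ⟨j, hj⟩ : ∃ j, s j ≠ 0 := by
      by_contra hne
      simp only [not_exists, not_not] at hne
      exact h0 (Finsupp.ext hne)
    refine ⟨j, ?_⟩
    have hj' : j ∈ s.support := Finsupp.mem_support_iff.mpr hj
    have hsum : (s.sum fun _ e => e) = ∑ k ∈ s.support, s k := rfl
    rw [hsum] at hs
    ext k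
    by_cases hk : k = j
    · subst hk
      rw [Finsupp.single_eq_same]
      have h3 := Finset.single_le_sum (f := fun k => s k) (fun _ _ => Nat.zero_le _) hj'
      have h4 : 0 < s k := Nat.pos_of_ne_zero hj
      have h5 : s k ≤ ∑ k ∈ s.support, s k := h3
      omega
    · rw [Finsupp.single_eq_of_ne hk]
      by_contra hk0
      have hk' : k ∈ s.support := Finsupp.mem_support_iff.mpr hk0
      have hsub : ({j, k} : Finset σ) ⊆ s.support := by
        intro a ha
        simp only [Finset.mem_insert, Finset.mem_singleton] at ha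
        rcases ha with rfl | rfl
        · exact hj'
        · exact hk'
      have h2 := Finset.sum_le_sum_of_subset (f := fun k => s k) hsub
      rw [Finset.sum_pair (Ne.symm hk)] at h2
      omega

theorem eval_eq_of_totalDegree_le_one [Fintype σ] [DecidableEq σ] (g : MvPolynomial σ ℂ)
    (hg : g.totalDegree ≤ 1) (x : σ → ℂ) :
    eval x g = eval 0 g + ∑ j, x j * eval 0 (pderiv j g) := by
  have key : ∀ s ∈ g.support, ∀ c : ℂ, eval x (monomial s c)
      = eval 0 (monomial s c) + ∑ j, x j * eval 0 (pderiv j (monomial s c)) := by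
    intro s hs c
    have hs1 : (s.sum fun _ e => e) ≤ 1 := (le_totalDegree hs).trans hg
    rcases finsupp_eq_zero_or_single s hs1 with h0 | ⟨j, hj⟩
    · subst h0
      simp
    · subst hj
      have h1 : (monomial (Finsupp.single j 1) c : MvPolynomial σ ℂ) = C c * X j := by
        rw [X, C_mul_monomial, mul_one]
      rw [h1]
      have h2 : ∀ k, x k * eval 0 (pderiv k (C c * X j : MvPolynomial σ ℂ))
          = if k = j then x j * c else 0 := by
        intro k
        rw [pderiv_C_mul, pderiv_X]
        by_cases hk : k = j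
        · subst hk
          simp
        · rw [if_neg hk, Pi.single_eq_of_ne (Ne.symm hk)]
          simp
      rw [Finset.sum_congr rfl fun k _ => h2 k, Finset.sum_ite_eq']
      simp [mul_comm]
  have hsum : g = ∑ s ∈ g.support, monomial s (coeff s g) := g.as_sum
  have e1 : eval x g = ∑ s ∈ g.support, eval x (monomial s (coeff s g)) := by
    conv_lhs => rw [hsum]
    rw [map_sum]
  have e2 : eval 0 g = ∑ s ∈ g.support, eval 0 (monomial s (coeff s g)) := by
    conv_lhs => rw [hsum]
    rw [map_sum]
  have e3 : ∀ j, eval 0 (pderiv j g)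
      = ∑ s ∈ g.support, eval 0 (pderiv j (monomial s (coeff s g))) := by
    intro j
    conv_lhs => rw [hsum]
    rw [map_sum, map_sum]
  rw [e1, e2, Finset.sum_congr rfl fun s hs => key s hs _, Finset.sum_add_distrib]
  congr 1
  rw [Finset.sum_comm]
  refine Finset.sum_congr rfl fun j _ => ?_
  rw [e3, Finset.mul_sum]

theorem exists_const_direction [Fintype σ] [DecidableEq σ] (f : MvPolynomial σ ℂ)
    (hf : f.totalDegree ≤ 2) (hgrad : ∀ x : σ → ℂ, ∃ i, eval x (pderiv i f) ≠ 0) :
    ∃ v : σ → ℂ, ∑ i, C (v i) * pderiv i f = 1 := by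
  set b : σ → ℂ := fun i => eval 0 (pderiv i f) with hb
  set M : σ → σ → ℂ := fun i j => eval 0 (pderiv j (pderiv i f)) with hM
  have haff : ∀ x i, eval x (pderiv i f) = b i + ∑ j, x j * M i j := fun x i =>
    eval_eq_of_totalDegree_le_one _ (totalDegree_pderiv_le_one f hf i) x
  let L : (σ → ℂ) →ₗ[ℂ] (σ → ℂ) :=
    { toFun := fun x i => ∑ j, x j * M i j
      map_add' := by
        intro x y
        funext i
        simp [add_mul, Finset.sum_add_distrib]
      map_smul' := by
        intro c x
        funext i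
        simp [Finset.mul_sum, mul_assoc] }
  have hLapp : ∀ x i, L x i = ∑ j, x j * M i j := fun _ _ => rfl
  have hbL : (-b) ∉ LinearMap.range L := by
    rintro ⟨x, hx⟩
    obtain ⟨i, hi⟩ := hgrad x
    apply hi
    rw [haff, ← hLapp, hx]
    simp
  obtain ⟨φ, hφ1, hφ2⟩ := Submodule.exists_dual_map_eq_bot_of_notMem hbL inferInstance
  have hφL : ∀ x, φ (L x) = 0 := by
    intro x
    have h1 : φ (L x) ∈ (LinearMap.range L).map φ :=
      Submodule.mem_map_of_mem (LinearMap.mem_range_self L x)
    rw [hφ2] at h1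
    simpa using h1
  have hφb : φ b ≠ 0 := by
    intro h
    apply hφ1
    rw [map_neg, h, neg_zero]
  have e1 : ∀ y : σ → ℂ, φ y = ∑ i, y i * φ (Pi.single i 1) := by
    intro y
    have h1 := LinearMap.pi_apply_eq_sum_univ φ y
    rw [h1]
    refine Finset.sum_congr rfl fun i _ => ?_
    rw [smul_eq_mul]
    congr 2
    funext j
    by_cases hij : i = j
    · subst hij; simp
    · rw [if_neg hij, Pi.single_eq_of_ne (Ne.symm hij)]
  refine ⟨fun i => φ (Pi.single i 1) / φ b, ?_⟩
  apply MvPolynomial.funext
  intro x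
  rw [map_sum, map_one]
  have e2 : ∀ i, eval x (C (φ (Pi.single i 1) / φ b) * pderiv i f)
      = (b i * φ (Pi.single i 1) + L x i * φ (Pi.single i 1)) / φ b := by
    intro i
    rw [map_mul, eval_C, haff, ← hLapp]
    ring
  rw [Finset.sum_congr rfl fun i _ => e2 i, ← Finset.sum_div, Finset.sum_add_distrib,
    ← e1, ← e1, hφL, add_zero, div_self hφb]

end Vale.Agent.Lib.P295
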