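import Mathlib
import Vale.Agent.Lib.P295.Quad

/-!
# Quadratic polynomials plus a one-variable polynomial of a linear form

For `f = q + p(a₁x₁ + ⋯ + aₙxₙ)` with `q` of total degree at most two and `p` an arbitrary
polynomial in one variable: if the gradient of `f` vanishes nowhere, then some constant
combination of the first derivatives of `f` is identically one.
-/

namespace Vale.Agent.Lib.P295

open MvPolynomial

variable {σ : Type*}

/-- mixed second derivatives do not depend on the order -/
theorem pderiv_pderiv_swap (i j : σ) (q : MvPolynomial σ ℂ) :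
    pderiv i (pderiv j q) = pderiv j (pderiv i q) := by
  classical
  ext m
  rw [coeff_pderiv, coeff_pderiv, coeff_pderiv, coeff_pderiv]
  by_cases hij : i = j
  · subst hij; rfl
  · have h1 : (m + Finsupp.single i 1 : σ →₀ ℕ) j = m j := by
      simp [hij]
    have h2 : (m + Finsupp.single j 1 : σ →₀ ℕ) i = m i := by
      simp [Ne.symm hij]
    rw [h1, h2, add_right_comm m (Finsupp.single i 1) (Finsupp.single j 1)]
    ring

/-- a linear functional on `σ → ℂ` in coordinates -/
theorem dual_apply_eq_sum [Fintype σ] [DecidableEq σ] (φ : Module.Dual ℂ (σ → ℂ))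
    (y : σ → ℂ) : φ y = ∑ i, y i * φ (Pi.single i 1) := by
  have h1 := LinearMap.pi_apply_eq_sum_univ φ y
  rw [h1]
  refine Finset.sum_congr rfl fun i _ => ?_
  rw [smul_eq_mul]
  congr 2
  funext j
  by_cases hij : i = j
  · subst hij; simp
  · rw [if_neg hij, Pi.single_eq_of_ne (Ne.symm hij)]

/-- a polynomial with affine gradient that vanishes nowhere has a constant direction -/
theorem exists_const_direction_of_affine [Fintype σ] [DecidableEq σ] (f : MvPolynomial σ ℂ)
    (b : σ → ℂ) (M : σ → σ → ℂ)
    (haff : ∀ x i, eval x (pderiv i f) = b i + ∑ j, x j * M i j)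
    (hgrad : ∀ x : σ → ℂ, ∃ i, eval x (pderiv i f) ≠ 0) :
    ∃ v : σ → ℂ, ∑ i, C (v i) * pderiv i f = 1 := by
  let L : (σ → ℂ) →ₗ[ℂ] (σ → ℂ) :=
    { toFun := fun x i => ∑ j, x j * M i j
      map_add' := by
        intro x y
        funext i
        simp [add_mul, Finset.sum_add_distrib]
      map_smul' := by
        intro c x
        funext i
        simp [Finset.mul_sum, mul_assoc] }
  have hLapp : ∀ x i, L x i = ∑ j, x j * M i j := fun _ _ => rfl
  have hbL : (-b) ∉ LinearMap.range L := by
    rintro ⟨x, hx⟩
    obtain ⟨i, hi⟩ := hgrad x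
    apply hi
    rw [haff, ← hLapp, hx]
    simp
  obtain ⟨φ, hφ1, hφ2⟩ := Submodule.exists_dual_map_eq_bot_of_notMem hbL inferInstance
  have hφL : ∀ x, φ (L x) = 0 := by
    intro x
    have h1 : φ (L x) ∈ (LinearMap.range L).map φ :=
      Submodule.mem_map_of_mem (LinearMap.mem_range_self L x)
    rw [hφ2] at h1
    simpa using h1
  have hφb : φ b ≠ 0 := by
    intro h
    apply hφ1
    rw [map_neg, h, neg_zero]
  refine ⟨fun i => φ (Pi.single i 1) / φ b, ?_⟩
  apply MvPolynomial.funext
  intro x
  rw [map_sum, map_one]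
  have e2 : ∀ i, eval x (C (φ (Pi.single i 1) / φ b) * pderiv i f)
      = (b i * φ (Pi.single i 1) + L x i * φ (Pi.single i 1)) / φ b := by
    intro i
    rw [map_mul, eval_C, haff, ← hLapp]
    ring
  rw [Finset.sum_congr rfl fun i _ => e2 i, ← Finset.sum_div, Finset.sum_add_distrib,
    ← dual_apply_eq_sum, ← dual_apply_eq_sum, hφL, add_zero, div_self hφb]

/-- derivative of a linear form -/
theorem pderiv_lin [Fintype σ] [DecidableEq σ] (a : σ → ℂ) (i : σ) :
    pderiv i (∑ j, C (a j) * X j : MvPolynomial σ ℂ) = C (a i) := by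
  rw [map_sum]
  have h : ∀ j, pderiv i (C (a j) * X j : MvPolynomial σ ℂ) = if j = i then C (a i) else 0 := by
    intro j
    rw [pderiv_C_mul, pderiv_X]
    by_cases hji : j = i
    · subst hji; simp
    · rw [if_neg hji, Pi.single_eq_of_ne hji]; simp
  rw [Finset.sum_congr rfl fun j _ => h j, Finset.sum_ite_eq']
  simp

/-- value of a linear form -/
theorem eval_lin [Fintype σ] (a x : σ → ℂ) :
    eval x (∑ j, C (a j) * X j : MvPolynomial σ ℂ) = ∑ j, a j * x j := by
  simp [map_sum]

/-- chain rule for a one-variable polynomial of a linear form -/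
theorem pderiv_aeval_lin [Fintype σ] [DecidableEq σ] (a : σ → ℂ) (p : Polynomial ℂ) (i : σ) :
    pderiv i (Polynomial.aeval (∑ j, C (a j) * X j : MvPolynomial σ ℂ) p)
      = Polynomial.aeval (∑ j, C (a j) * X j : MvPolynomial σ ℂ) (Polynomial.derivative p)
        * C (a i) := by
  rw [Derivation.map_aeval, pderiv_lin, smul_eq_mul]

/-- value of a one-variable polynomial of a polynomial -/
theorem eval_aeval_poly (x : σ → ℂ) (g : MvPolynomial σ ℂ) (p : Polynomial ℂ) :
    eval x (Polynomial.aeval g p) = Polynomial.eval (eval x g) p := by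
  rw [Polynomial.aeval_def, Polynomial.hom_eval₂]
  have h : (eval x).comp (algebraMap ℂ (MvPolynomial σ ℂ)) = RingHom.id ℂ := by
    ext c
    simp [MvPolynomial.algebraMap_eq]
  rw [h, Polynomial.eval₂_id]

/-- the gradient criterion for a quadratic polynomial plus a one-variable polynomial of a
linear form -/
theorem exists_const_direction_ridge [Fintype σ] [DecidableEq σ] (q : MvPolynomial σ ℂ)
    (hq : q.totalDegree ≤ 2) (a : σ → ℂ) (p : Polynomial ℂ)
    (hgrad : ∀ x : σ → ℂ, ∃ i,
      eval x (pderiv i (q + Polynomial.aeval (∑ j, C (a j) * X j : MvPolynomial σ ℂ) p)) ≠ 0) :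
    ∃ v : σ → ℂ, ∑ i, C (v i)
      * pderiv i (q + Polynomial.aeval (∑ j, C (a j) * X j : MvPolynomial σ ℂ) p) = 1 := by
  set f : MvPolynomial σ ℂ :=
    q + Polynomial.aeval (∑ j, C (a j) * X j : MvPolynomial σ ℂ) p with hf
  set b : σ → ℂ := fun i => eval 0 (pderiv i q) with hb
  set M : σ → σ → ℂ := fun i j => eval 0 (pderiv j (pderiv i q)) with hM
  have hMsymm : ∀ i j, M i j = M j i := by
    intro i j
    simp only [hM]
    rw [pderiv_pderiv_swap]
  have haffq : ∀ x i, eval x (pderiv i q) = b i + ∑ j, x j * M i j := fun x i =>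
    eval_eq_of_totalDegree_le_one _ (totalDegree_pderiv_le_one q hq i) x
  have hG : ∀ x i, eval x (pderiv i f)
      = b i + ∑ j, x j * M i j
        + (Polynomial.derivative p).eval (∑ j, a j * x j) * a i := by
    intro x i
    rw [hf, map_add, map_add, haffq, pderiv_aeval_lin, map_mul, eval_C, eval_aeval_poly,
      eval_lin]
  let L : (σ → ℂ) →ₗ[ℂ] (σ → ℂ) :=
    { toFun := fun x i => ∑ j, x j * M i j
      map_add' := by
        intro x y
        funext i
        simp [add_mul, Finset.sum_add_distrib]
      map_smul' := by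
        intro c x
        funext i
        simp [Finset.mul_sum, mul_assoc] }
  have hLapp : ∀ x i, L x i = ∑ j, x j * M i j := fun _ _ => rfl
  -- if the derivative of `p` is affine, the gradient of `f` is affine
  have haffine : ∀ α γ : ℂ, (∀ t, (Polynomial.derivative p).eval t = α + γ * t) →
      ∃ v : σ → ℂ, ∑ i, C (v i) * pderiv i f = 1 := by
    intro α γ hP
    refine exists_const_direction_of_affine f (fun i => b i + α * a i)
      (fun i j => M i j + γ * a j * a i) ?_ hgrad
    intro x i
    rw [hG, hP]
    have h1 : ∑ j, x j * (M i j + γ * a j * a i)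
        = ∑ j, x j * M i j + γ * (∑ j, a j * x j) * a i := by
      rw [Finset.mul_sum, Finset.sum_mul, ← Finset.sum_add_distrib]
      refine Finset.sum_congr rfl fun j _ => by ring
    rw [h1]
    ring
  by_cases hbmem : b ∈ LinearMap.range L ⊔ Submodule.span ℂ {a}
  swap
  · -- a constant direction exists
    obtain ⟨φ, hφ1, hφ2⟩ := Submodule.exists_dual_map_eq_bot_of_notMem hbmem inferInstance
    have hφzero : ∀ y ∈ LinearMap.range L ⊔ Submodule.span ℂ {a}, φ y = 0 := by
      intro y hy
      have h1 : φ y ∈ (LinearMap.range L ⊔ Submodule.span ℂ {a}).map φ :=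
        Submodule.mem_map_of_mem hy
      rw [hφ2] at h1
      simpa using h1
    have hφL : ∀ x, φ (L x) = 0 := fun x =>
      hφzero _ (Submodule.mem_sup_left (LinearMap.mem_range_self L x))
    have hφa : φ a = 0 :=
      hφzero _ (Submodule.mem_sup_right (Submodule.mem_span_singleton_self a))
    refine ⟨fun i => φ (Pi.single i 1) / φ b, ?_⟩
    apply MvPolynomial.funext
    intro x
    rw [map_sum, map_one]
    have e2 : ∀ i, eval x (C (φ (Pi.single i 1) / φ b) * pderiv i f)
        = (b i * φ (Pi.single i 1) + L x i * φ (Pi.single i 1)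
          + (Polynomial.derivative p).eval (∑ j, a j * x j) * (a i * φ (Pi.single i 1)))
            / φ b := by
      intro i
      rw [map_mul, eval_C, hG, ← hLapp]
      ring
    have s1 : ∑ i, b i * φ (Pi.single i 1) = φ b := (dual_apply_eq_sum φ b).symm
    have s2 : ∑ i, L x i * φ (Pi.single i 1) = 0 := by
      rw [← dual_apply_eq_sum, hφL]
    have s3 : ∑ i, a i * φ (Pi.single i 1) = 0 := by
      rw [← dual_apply_eq_sum, hφa]
    rw [Finset.sum_congr rfl fun i _ => e2 i, ← Finset.sum_div, Finset.sum_add_distrib,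
      Finset.sum_add_distrib, ← Finset.mul_sum, s1, s2, s3, mul_zero, add_zero, add_zero,
      div_self hφ1]
  -- otherwise `b = L u0 + s0 • a`
  obtain ⟨y, hy, z, hz, hyz⟩ := Submodule.mem_sup.mp hbmem
  obtain ⟨u0, hu0⟩ := LinearMap.mem_range.mp hy
  obtain ⟨s0, hs0⟩ := Submodule.mem_span_singleton.mp hz
  have hbi : ∀ i, b i = L u0 i + s0 * a i := by
    intro i
    rw [← hyz, ← hu0, ← hs0]
    simp
  -- the gradient at the point `d - u0`
  have hGd : ∀ (d : σ → ℂ) i, eval (d - u0) (pderiv i f)
      = L d i + (s0 + (Polynomial.derivative p).eval (∑ j, a j * (d j - u0 j))) * a i := by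
    intro d i
    rw [hG, hbi]
    have h1 : ∑ j, (d - u0) j * M i j = L d i - L u0 i := by
      rw [hLapp, hLapp, ← Finset.sum_sub_distrib]
      refine Finset.sum_congr rfl fun j _ => by rw [Pi.sub_apply]; ring
    have h2 : ∑ j, a j * (d - u0) j = ∑ j, a j * (d j - u0 j) :=
      Finset.sum_congr rfl fun j _ => by rw [Pi.sub_apply]
    rw [h1, h2]
    ring
  by_cases ha : a ∈ LinearMap.range L
  · -- `a = L w`: look at the points `lam • w - u0`
    obtain ⟨w, hw⟩ := LinearMap.mem_range.mp ha
    set τ : ℂ := ∑ j, a j * w j with hτ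
    set β : ℂ := -∑ j, a j * u0 j with hβ
    have hdot : ∀ lam : ℂ, ∑ j, a j * ((lam • w) j - u0 j) = β + τ * lam := by
      intro lam
      have h1 : ∑ j, a j * ((lam • w) j - u0 j)
          = lam * ∑ j, a j * w j - ∑ j, a j * u0 j := by
        rw [Finset.mul_sum, ← Finset.sum_sub_distrib]
        refine Finset.sum_congr rfl fun j _ => by
          rw [Pi.smul_apply, smul_eq_mul]; ring
      rw [h1, hβ, hτ]
      ring
    have hpt : ∀ lam : ℂ, ∀ i, eval (lam • w - u0) (pderiv i f)
        = (lam + s0 + (Polynomial.derivative p).eval (β + τ * lam)) * a i := by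
      intro lam i
      rw [hGd, hdot, map_smul, hw, Pi.smul_apply, smul_eq_mul]
      ring
    set g : Polynomial ℂ := Polynomial.X + Polynomial.C s0
      + (Polynomial.derivative p).comp (Polynomial.C β + Polynomial.C τ * Polynomial.X) with hg
    have hgeval : ∀ lam : ℂ, g.eval lam
        = lam + s0 + (Polynomial.derivative p).eval (β + τ * lam) := by
      intro lam
      simp [hg, Polynomial.eval_comp]
    by_cases hdeg : g.degree = 0
    · -- `g` is a nonzero constant, so the derivative of `p` is affine
      have hgC : g = Polynomial.C (g.coeff 0) := Polynomial.eq_C_of_degree_eq_zero hdeg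
      have hconst : ∀ lam : ℂ, lam + s0 + (Polynomial.derivative p).eval (β + τ * lam)
          = g.coeff 0 := by
        intro lam
        rw [← hgeval, hgC]
        simp
      have hτ0 : τ ≠ 0 := by
        intro h0
        have e0 := hconst 0
        have e1 := hconst 1
        rw [h0] at e0 e1
        simp only [zero_mul, add_zero] at e0 e1
        have : (1 : ℂ) = 0 := by linear_combination e1 - e0
        exact one_ne_zero this
      refine haffine (g.coeff 0 - s0 + β / τ) (-1 / τ) ?_
      intro t
      have e := hconst ((t - β) / τ)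
      have h3 : β + τ * ((t - β) / τ) = t := by field_simp; ring
      rw [h3] at e
      have h4 : (Polynomial.derivative p).eval t = g.coeff 0 - s0 - (t - β) / τ := by
        linear_combination e
      rw [h4]
      field_simp
      ring
    · -- a root of `g` gives a critical point
      obtain ⟨lam, hlam⟩ := IsAlgClosed.exists_root g hdeg
      exfalso
      obtain ⟨i, hi⟩ := hgrad (lam • w - u0)
      apply hi
      rw [hpt, ← hgeval, hlam.eq_zero, zero_mul]
  · -- `a` is not in the range of `L`: a kernel vector `k` of `L` with `a ⬝ k ≠ 0`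
    obtain ⟨φ, hφ1, hφ2⟩ := Submodule.exists_dual_map_eq_bot_of_notMem ha inferInstance
    have hφL : ∀ x, φ (L x) = 0 := by
      intro x
      have h1 : φ (L x) ∈ (LinearMap.range L).map φ :=
        Submodule.mem_map_of_mem (LinearMap.mem_range_self L x)
      rw [hφ2] at h1
      simpa using h1
    set k : σ → ℂ := fun i => φ (Pi.single i 1) with hk
    have hLe : ∀ i j, L (Pi.single i 1) j = M j i := by
      intro i j
      rw [hLapp]
      simp [Pi.single_apply]
    have hLk : ∀ i, L k i = 0 := by
      intro i
      have h1 := dual_apply_eq_sum φ (L (Pi.single i 1))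
      rw [hφL] at h1
      rw [hLapp, h1]
      refine Finset.sum_congr rfl fun j _ => ?_
      rw [hLe, hMsymm i j, mul_comm]
    set κ : ℂ := ∑ j, a j * k j with hκ
    have hκ0 : κ ≠ 0 := by
      rw [hκ, ← dual_apply_eq_sum]
      exact hφ1
    set β : ℂ := -∑ j, a j * u0 j with hβ
    have hdot : ∀ mu : ℂ, ∑ j, a j * ((mu • k) j - u0 j) = β + κ * mu := by
      intro mu
      have h1 : ∑ j, a j * ((mu • k) j - u0 j)
          = mu * ∑ j, a j * k j - ∑ j, a j * u0 j := by
        rw [Finset.mul_sum, ← Finset.sum_sub_distrib]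
        refine Finset.sum_congr rfl fun j _ => by
          rw [Pi.smul_apply, smul_eq_mul]; ring
      rw [h1, hβ, hκ]
      ring
    have hpt : ∀ mu : ℂ, ∀ i, eval (mu • k - u0) (pderiv i f)
        = (s0 + (Polynomial.derivative p).eval (β + κ * mu)) * a i := by
      intro mu i
      rw [hGd, hdot, map_smul, Pi.smul_apply, hLk, smul_zero, zero_add]
    set g : Polynomial ℂ := Polynomial.derivative p + Polynomial.C s0 with hg
    have hgeval : ∀ t : ℂ, g.eval t = (Polynomial.derivative p).eval t + s0 := by
      intro t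
      simp [hg]
    by_cases hdeg : g.degree = 0
    · have hgC : g = Polynomial.C (g.coeff 0) := Polynomial.eq_C_of_degree_eq_zero hdeg
      refine haffine (g.coeff 0 - s0) 0 ?_
      intro t
      have e : g.eval t = g.coeff 0 := by
        rw [hgC]
        simp
      rw [hgeval] at e
      linear_combination e
    · obtain ⟨t0, ht0⟩ := IsAlgClosed.exists_root g hdeg
      exfalso
      obtain ⟨i, hi⟩ := hgrad (((t0 - β) / κ) • k - u0)
      apply hi
      have h3 : β + κ * ((t0 - β) / κ) = t0 := by field_simp; ring
      have h4 : (Polynomial.derivative p).eval t0 + s0 = 0 := by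
        rw [← hgeval]
        exact ht0.eq_zero
      rw [hpt, h3]
      linear_combination a i * h4

end Vale.Agent.Lib.P295
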